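import Vale.Agent.P297.H516.Side

/-!
The three-parameter family of genus two pencils glued from two copies of the Hesse pencil.
-/

set_option linter.unusedSectionVars false
set_option linter.style.haveILetI false

open CategoryTheory AlgebraicGeometry IntermediateField Polynomial

namespace Vale.Agent.P297.H516

open Vale.Agent.P297 Vale.Agent.P297.H839 Vale.Agent.P297.H878

section

variable {K : Type} [Field K] [Algebra ℂ K]

theorem D_ne {m Z : K} (hind : AlgebraicIndependent ℂ ![m, Z]) : 1 - m ^ 3 ≠ 0 := by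
  have h := aeval_ne_zero hind (1 - MvPolynomial.X 0 ^ 3) ![0, 0] (by simp)
  simpa using h

/-- Two embeddings of the parameter line. -/
structure Moebius (α β γ δ : ℂ) (l m : K) : Prop where
  det : α * δ - β * γ ≠ 0
  eq : m * (algebraMap ℂ K γ * l + algebraMap ℂ K δ) = algebraMap ℂ K α * l + algebraMap ℂ K β

theorem Moebius.den_ne {α β γ δ : ℂ} {l m : K} (h : Moebius α β γ δ l m)
    (hl : Transcendental ℂ l) : algebraMap ℂ K γ * l + algebraMap ℂ K δ ≠ 0 := by
  intro h0
  by_cases hγ : γ = 0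
  · rw [hγ, map_zero, zero_mul, zero_add] at h0
    have hδ : δ = 0 := (algebraMap ℂ K).injective (by rw [h0, map_zero])
    apply h.det
    rw [hγ, hδ]
    ring
  · apply hl
    refine ⟨Polynomial.C γ * X + Polynomial.C δ, ?_, ?_⟩
    · intro h1
      have h2 := congrArg (fun p => p.coeff 1) h1
      simp at h2
      exact hγ h2
    · simp only [map_add, map_mul, aeval_C, aeval_X]
      exact h0

theorem Moebius.symm {α β γ δ : ℂ} {l m : K} (h : Moebius α β γ δ l m)
    : Moebius δ (-β) (-γ) α m l where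
  det := by
    intro h0
    apply h.det
    linear_combination h0
  eq := by
    have h1 := h.eq
    rw [map_neg, map_neg]
    linear_combination -h1

theorem Moebius.mem {α β γ δ : ℂ} {l m : K} (h : Moebius α β γ δ l m)
    (hl : Transcendental ℂ l) : m ∈ IntermediateField.adjoin ℂ {l} := by
  have h1 := h.den_ne hl
  have h2 : m = (algebraMap ℂ K α * l + algebraMap ℂ K β) /
      (algebraMap ℂ K γ * l + algebraMap ℂ K δ) := by
    rw [eq_div_iff h1]
    exact h.eq
  have hlm : l ∈ IntermediateField.adjoin ℂ {l} := IntermediateField.mem_adjoin_simple_self ℂ l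
  rw [h2]
  exact div_mem (add_mem (mul_mem (IntermediateField.algebraMap_mem _ _) hlm)
    (IntermediateField.algebraMap_mem _ _)) (add_mem (mul_mem
    (IntermediateField.algebraMap_mem _ _) hlm) (IntermediateField.algebraMap_mem _ _))

theorem Moebius.transcendental {α β γ δ : ℂ} {l m : K} (h : Moebius α β γ δ l m)
    (hl : Transcendental ℂ l) : Transcendental ℂ m := by
  intro hm
  obtain ⟨c, hc⟩ : ∃ c : ℂ, algebraMap ℂ K c = m := by
    have h1 : _root_.IsIntegral ℂ m := hm.isIntegral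
    exact minpoly.mem_range_of_degree_eq_one ℂ m
      (IsAlgClosed.degree_eq_one_of_irreducible ℂ (minpoly.irreducible h1))
  have h1 := h.eq
  rw [← hc] at h1
  by_cases h2 : c * γ - α = 0
  · apply h.det
    have h3 : algebraMap ℂ K (c * δ - β) = 0 := by
      have h4 : algebraMap ℂ K (c * γ - α) * l + algebraMap ℂ K (c * δ - β) = 0 := by
        rw [map_sub, map_mul, map_sub, map_mul]
        linear_combination h1
      rw [h2, map_zero, zero_mul, zero_add] at h4
      exact h4
    have h5 : c * δ - β = 0 := (algebraMap ℂ K).injective (by rw [h3, map_zero])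
    linear_combination γ * h5 - δ * h2
  · apply hl
    refine ⟨Polynomial.C (c * γ - α) * X + Polynomial.C (c * δ - β), ?_, ?_⟩
    · intro h3
      have h4 := congrArg (fun p => p.coeff 1) h3
      simp at h4
      exact h2 h4
    · simp only [map_add, map_mul, aeval_C, aeval_X, map_sub]
      linear_combination h1

theorem six_zero (c₆ c₅ c₄ c₃ c₂ c₁ c₀ : ℂ) (h : Polynomial.C c₆ * X ^ 6 +
    Polynomial.C c₅ * X ^ 5 + Polynomial.C c₄ * X ^ 4 + Polynomial.C c₃ * X ^ 3 +
    Polynomial.C c₂ * X ^ 2 + Polynomial.C c₁ * X + Polynomial.C c₀ = 0) : c₆ = 0 ∧ c₄ = 0 := by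
  constructor
  · have h7 := congrArg (fun q => q.coeff 6) h
    simpa [Polynomial.coeff_X, Polynomial.coeff_C] using h7
  · have h7 := congrArg (fun q => q.coeff 4) h
    simpa [Polynomial.coeff_X, Polynomial.coeff_C] using h7

theorem Moebius.W_ne {α β γ δ : ℂ} {l m : K} (h : Moebius α β γ δ l m)
    (hl : Transcendental ℂ l) : Wf l m ≠ 0 := by
  intro hW
  let p : ℂ[X] := Polynomial.C (γ ^ 3) * X ^ 6 +
    Polynomial.C (3 * γ ^ 2 * δ - 3 * α ^ 2 * γ) * X ^ 5 +
    Polynomial.C (3 * γ * δ ^ 2 - 3 * α ^ 2 * δ - 6 * α * β * γ + 3 * α * γ ^ 2) * X ^ 4 +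
    Polynomial.C (δ ^ 3 + α ^ 3 - 6 * α * β * δ - 3 * β ^ 2 * γ + 6 * α * γ * δ + 3 * β * γ ^ 2 -
      2 * γ ^ 3) * X ^ 3 +
    Polynomial.C (3 * α ^ 2 * β - 3 * β ^ 2 * δ + 3 * α * δ ^ 2 + 6 * β * γ * δ -
      6 * γ ^ 2 * δ) * X ^ 2 +
    Polynomial.C (3 * α * β ^ 2 + 3 * β * δ ^ 2 - 6 * γ * δ ^ 2) * X +
    Polynomial.C (β ^ 3 - 2 * δ ^ 3)
  have hp : Polynomial.aeval l p = 0 := by
    have h1 := h.eq
    have h2 : Polynomial.aeval l p =
        l ^ 3 * (algebraMap ℂ K γ * l + algebraMap ℂ K δ) ^ 3 +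
        (algebraMap ℂ K α * l + algebraMap ℂ K β) ^ 3 -
        3 * l ^ 2 * (algebraMap ℂ K α * l + algebraMap ℂ K β) ^ 2 *
          (algebraMap ℂ K γ * l + algebraMap ℂ K δ) +
        3 * l * (algebraMap ℂ K α * l + algebraMap ℂ K β) *
          (algebraMap ℂ K γ * l + algebraMap ℂ K δ) ^ 2 -
        2 * (algebraMap ℂ K γ * l + algebraMap ℂ K δ) ^ 3 := by
      simp only [p, map_add, map_sub, map_mul, map_pow, aeval_C, aeval_X, map_ofNat]
      ring
    rw [h2, ← h1]
    have h3 : l ^ 3 * (algebraMap ℂ K γ * l + algebraMap ℂ K δ) ^ 3 +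
        (m * (algebraMap ℂ K γ * l + algebraMap ℂ K δ)) ^ 3 -
        3 * l ^ 2 * (m * (algebraMap ℂ K γ * l + algebraMap ℂ K δ)) ^ 2 *
          (algebraMap ℂ K γ * l + algebraMap ℂ K δ) +
        3 * l * (m * (algebraMap ℂ K γ * l + algebraMap ℂ K δ)) *
          (algebraMap ℂ K γ * l + algebraMap ℂ K δ) ^ 2 -
        2 * (algebraMap ℂ K γ * l + algebraMap ℂ K δ) ^ 3 =
        Wf l m * (algebraMap ℂ K γ * l + algebraMap ℂ K δ) ^ 3 := by
      unfold Wf
      ring
    rw [h3, hW, zero_mul]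
  have hp0 : p = 0 := by
    by_contra hne
    exact hl ⟨p, hne, hp⟩
  obtain ⟨h6, h4⟩ := six_zero _ _ _ _ _ _ _ hp0
  have hγ : γ = 0 := pow_eq_zero_iff (by norm_num) |>.1 h6
  have hdet := h.det
  rw [hγ] at h4 hdet
  have h8 : α ^ 2 * δ = 0 := by linear_combination -(1 / 3 : ℂ) * h4
  apply hdet
  rcases mul_eq_zero.1 h8 with h9 | h9
  · rw [pow_eq_zero_iff two_ne_zero |>.1 h9]
    ring
  · rw [h9]
    ring

/-- Independence after a Moebius transformation. -/
theorem Moebius.indep {α β γ δ : ℂ} {l m Z : K} (h : Moebius α β γ δ l m)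
    (hind : AlgebraicIndependent ℂ ![l, Z]) : AlgebraicIndependent ℂ ![m, Z⁻¹] := by
  have hl : Transcendental ℂ l := ((pair_iff l Z).1 hind).1
  refine indep_of_algebraic hind ?_
  intro i
  have hsub : ∀ x : K, x ∈ IntermediateField.adjoin ℂ (Set.range ![m, Z⁻¹]) →
      IsAlgebraic (IntermediateField.adjoin ℂ (Set.range ![m, Z⁻¹])) x := fun x hx =>
    isAlgebraic_mem _ _ hx
  have hm : m ∈ IntermediateField.adjoin ℂ (Set.range ![m, Z⁻¹]) :=
    IntermediateField.subset_adjoin _ _ ⟨0, rfl⟩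
  have hZ : Z⁻¹ ∈ IntermediateField.adjoin ℂ (Set.range ![m, Z⁻¹]) :=
    IntermediateField.subset_adjoin _ _ ⟨1, rfl⟩
  apply hsub
  fin_cases i
  · have h1 : l ∈ IntermediateField.adjoin ℂ {m} := h.symm.mem (h.transcendental hl)
    refine (IntermediateField.adjoin.mono ℂ _ _ ?_) h1
    intro x hx
    rw [Set.mem_singleton_iff.1 hx]
    exact ⟨0, rfl⟩
  · have h1 := inv_mem hZ
    rw [inv_inv] at h1
    exact h1

/-- The second elliptic quotient, from the first one. -/
theorem side_two {α β γ δ : ℂ} {l m Z y : K} (h : Moebius α β γ δ l m)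
    (hind : AlgebraicIndependent ℂ ![l, Z])
    (hy : tf l m * y ^ 2 = pp (af l m) (bf l m) Z * qq (af m l) (bf m l) Z) :
    IsRational (IntermediateField.adjoin ℂ
      {l, Z ^ 2 * (af l m * Z - 2 * bf l m) / qq (af m l) (bf m l) Z,
        y * nn (af l m) (bf l m) Z / qq (af m l) (bf m l) Z ^ 2}) := by
  haveI : CharZero K := charZero_of_injective_algebraMap (algebraMap ℂ K).injective
  have hl : Transcendental ℂ l := ((pair_iff l Z).1 hind).1
  have hm : Transcendental ℂ m := h.transcendental hl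
  have hind' := h.indep hind
  have hZ : Z ≠ 0 := by
    have h1 := aeval_ne_zero hind (MvPolynomial.X 1) ![0, 1] (by simp)
    simpa using h1
  have hpq : pp (af m l) (bf m l) Z⁻¹ = qq (af m l) (bf m l) Z / Z ^ 3 := by
    unfold pp qq
    field_simp
    ring
  have hqp : qq (af l m) (bf l m) Z⁻¹ = pp (af l m) (bf l m) Z / Z ^ 3 := by
    unfold pp qq
    field_simp
    ring
  have hmn : mm (af l m) (bf l m) Z⁻¹ = - nn (af l m) (bf l m) Z / Z ^ 3 := by
    unfold mm nn
    field_simp
    ring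
  have key := side_one (l := m) (m := l) (Z := Z⁻¹) (y := y / Z ^ 3) hind'
    (h.symm.mem hm) (D_ne hind') (D_ne hind) (by rw [Wf_comm]; exact h.W_ne hl) (by
      rw [hpq, hqp, tf_comm, div_pow, ← mul_div_assoc, hy]
      field_simp)
  have e1 : (af l m - 2 * bf l m * Z⁻¹) / pp (af m l) (bf m l) Z⁻¹ =
      Z ^ 2 * (af l m * Z - 2 * bf l m) / qq (af m l) (bf m l) Z := by
    rw [hpq]
    by_cases hq : qq (af m l) (bf m l) Z = 0
    · rw [hq]
      simp
    · field_simp
  have e2 : y / Z ^ 3 * mm (af l m) (bf l m) Z⁻¹ / pp (af m l) (bf m l) Z⁻¹ ^ 2 =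
      - (y * nn (af l m) (bf l m) Z / qq (af m l) (bf m l) Z ^ 2) := by
    rw [hpq, hmn]
    by_cases hq : qq (af m l) (bf m l) Z = 0
    · rw [hq]
      simp
    · field_simp
  rw [e1, e2] at key
  have hfield : IntermediateField.adjoin ℂ
      {l, Z ^ 2 * (af l m * Z - 2 * bf l m) / qq (af m l) (bf m l) Z,
        y * nn (af l m) (bf l m) Z / qq (af m l) (bf m l) Z ^ 2} =
      IntermediateField.adjoin ℂ
      {m, Z ^ 2 * (af l m * Z - 2 * bf l m) / qq (af m l) (bf m l) Z,
        -(y * nn (af l m) (bf l m) Z / qq (af m l) (bf m l) Z ^ 2)} := by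
    generalize Z ^ 2 * (af l m * Z - 2 * bf l m) / qq (af m l) (bf m l) Z = U
    generalize y * nn (af l m) (bf l m) Z / qq (af m l) (bf m l) Z ^ 2 = V
    apply le_antisymm
    · rw [IntermediateField.adjoin_le_iff]
      rintro x (hx | hx | hx)
      · rw [hx]
        refine (IntermediateField.adjoin.mono ℂ _ _ ?_) (h.symm.mem hm)
        intro z hz
        rw [Set.mem_singleton_iff.1 hz]
        simp
      · rw [hx]
        exact IntermediateField.subset_adjoin _ _ (by simp)
      · rw [Set.mem_singleton_iff.1 hx, ← neg_neg V]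
        exact neg_mem (IntermediateField.subset_adjoin _ _ (by simp))
    · rw [IntermediateField.adjoin_le_iff]
      rintro x (hx | hx | hx)
      · rw [hx]
        refine (IntermediateField.adjoin.mono ℂ _ _ ?_) (h.mem hl)
        intro z hz
        rw [Set.mem_singleton_iff.1 hz]
        simp
      · rw [hx]
        exact IntermediateField.subset_adjoin _ _ (by simp)
      · rw [Set.mem_singleton_iff.1 hx]
        exact neg_mem (IntermediateField.subset_adjoin _ _ (by simp))
  rw [hfield]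
  exact key

/-- **The family.** Let `m` be the image of `l` under a Moebius transformation, `Z` independent of
`l`, `Y² = W(l,m) P(Z) Q(Z)` and `K = ℂ(l, Z, Y)`. Then three times the difference of two closed
points of any integral proper scheme with function field `K` is rationally equivalent to zero. -/
theorem glue {α β γ δ : ℂ} {l m Z Y : K} (h : Moebius α β γ δ l m)
    (hind : AlgebraicIndependent ℂ ![l, Z]) (hY : Y ^ 2 = Wf l m * Pf l m Z * Qf l m Z)
    (htop : IntermediateField.adjoin ℂ {l, Z, Y} = ⊤)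
    {S : Scheme.{0}} [IsIntegral S] (f : S ⟶ Spec (.of ℂ)) [IsProper f]
    (hS : IsFunctionFieldOf f K) (P Q : ClosedPt S) :
    (3 : ℤ) • (Finsupp.single P (1 : ℤ) - Finsupp.single Q 1) ∈ Rat f := by
  haveI : CharZero K := charZero_of_injective_algebraMap (algebraMap ℂ K).injective
  have hl : Transcendental ℂ l := ((pair_iff l Z).1 hind).1
  have hm : Transcendental ℂ m := h.transcendental hl
  have hD := D_ne hind
  have hE := D_ne (h.indep hind)
  have hW := h.W_ne hl
  obtain ⟨s, hs⟩ := IsAlgClosed.exists_pow_nat_eq (-1 / 48 : ℂ) (n := 2) two_pos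
  have hs0 : s ≠ 0 := by
    rintro rfl
    norm_num at hs
  have hs' : algebraMap ℂ K s ^ 2 = -1 / 48 := by
    rw [← map_pow, hs, map_div₀, map_neg, map_one, map_ofNat]
  have hs0' : algebraMap ℂ K s ≠ 0 := by
    intro h0
    exact hs0 ((algebraMap ℂ K).injective (by rw [h0, map_zero]))
  set c := (1 - l ^ 3) * (1 - m ^ 3) * Wf l m with hc
  have hc0 : c ≠ 0 := mul_ne_zero (mul_ne_zero hD hE) hW
  set y := algebraMap ℂ K s * Y / c with hy
  have hyc : y * c = algebraMap ℂ K s * Y := by rw [hy, div_mul_cancel₀ _ hc0]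
  have hYy : Y = y * c / algebraMap ℂ K s := by
    rw [hyc, mul_div_cancel_left₀ _ hs0']
  have hlm : l ∈ IntermediateField.adjoin ℂ {l} := IntermediateField.mem_adjoin_simple_self ℂ l
  have hmm := h.mem hl
  have hy2 : tf l m * y ^ 2 = pp (af l m) (bf l m) Z * qq (af m l) (bf m l) Z := by
    have h16 : (16 : K) * (1 - l ^ 3) * (1 - m ^ 3) ≠ 0 :=
      mul_ne_zero (mul_ne_zero (by norm_num) hD) hE
    apply mul_left_cancel₀ (mul_ne_zero h16 hc0)
    have h1 : 16 * (1 - l ^ 3) * (1 - m ^ 3) * (pp (af l m) (bf l m) Z *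
        qq (af m l) (bf m l) Z) = Pf l m Z * Qf l m Z := by
      rw [← pp_eq hE, ← qq_eq hD]
      ring
    have h2 : 16 * (1 - l ^ 3) * (1 - m ^ 3) * c * (tf l m * y ^ 2) =
        -48 * (1 - l ^ 3) * (1 - m ^ 3) * (y * c) ^ 2 := by
      unfold tf
      rw [hc]
      ring
    have h3 : 16 * (1 - l ^ 3) * (1 - m ^ 3) * c * (pp (af l m) (bf l m) Z *
        qq (af m l) (bf m l) Z) = c * (Pf l m Z * Qf l m Z) := by
      rw [← h1]
      ring
    rw [h2, h3, hyc, mul_pow, hs', hY, hc]
    ring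
  refine t_one l Z y hind (tf l m) (af l m) (bf l m) (af m l) (bf m l) ?_ (mem_af hlm hmm)
    (mem_bf hlm hmm) (mem_af hmm hlm) (mem_bf hmm hlm) ?_ (ab_eq hD hE) ?_ ?_ hy2 ?_
    (side_one hind hmm hD hE hW hy2) (side_two h hind hy2) f hS P Q
  · unfold tf
    exact mul_mem (mul_mem (mul_mem (neg_mem (ofNat_mem _ 3)) (mem_D hlm)) (mem_D hmm))
      (mem_W hlm hmm)
  · unfold tf
    exact mul_ne_zero (mul_ne_zero (mul_ne_zero (by norm_num) hD) hE) hW
  · intro h0
    have h1 := disc_eq (l := l) hE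
    rw [h0, mul_zero] at h1
    exact pow_ne_zero 2 hW h1.symm
  · intro h0
    have h1 := disc_eq (l := m) hD
    rw [h0, mul_zero, Wf_comm] at h1
    exact pow_ne_zero 2 hW h1.symm
  · rw [eq_top_iff, ← htop, IntermediateField.adjoin_le_iff]
    have hl1 : l ∈ IntermediateField.adjoin ℂ {l, Z, y} :=
      IntermediateField.subset_adjoin _ _ (by simp)
    have hm1 : m ∈ IntermediateField.adjoin ℂ {l, Z, y} := by
      refine (IntermediateField.adjoin.mono ℂ _ _ ?_) hmm
      intro x hx
      rw [Set.mem_singleton_iff.1 hx]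
      simp
    have hy1 : y ∈ IntermediateField.adjoin ℂ {l, Z, y} :=
      IntermediateField.subset_adjoin _ _ (by simp)
    rintro x (hx | hx | hx)
    · rw [hx]; exact hl1
    · rw [hx]; exact IntermediateField.subset_adjoin _ _ (by simp)
    · rw [Set.mem_singleton_iff.1 hx, hYy]
      exact div_mem (mul_mem hy1 (mul_mem (mul_mem (mem_D hl1) (mem_D hm1)) (mem_W hl1 hm1)))
        (IntermediateField.algebraMap_mem _ _)

end

end Vale.Agent.P297.H516
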