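import Vale.Agent.P297.H839.Points

/-!
The family of genus two pencils that is glued from two copies of the Hesse pencil.
-/

namespace Vale.Agent.P297.H516

variable {N : Type} [Field N]

/-- `W = l³ + m³ - 3l²m² + 3lm - 2`. -/
def Wf (l m : N) : N := l ^ 3 + m ^ 3 - 3 * l ^ 2 * m ^ 2 + 3 * l * m - 2

/-- `P = 4(1 - m³)Z³ + 3(ml² + m² - 2l)Z - (l³ - 3lm + 2)`. -/
def Pf (l m Z : N) : N :=
  4 * (1 - m ^ 3) * Z ^ 3 + 3 * (m * l ^ 2 + m ^ 2 - 2 * l) * Z - (l ^ 3 - 3 * l * m + 2)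

/-- `Q = 4(1 - l³) + 3(lm² + l² - 2m)Z² - (m³ - 3lm + 2)Z³`. -/
def Qf (l m Z : N) : N :=
  4 * (1 - l ^ 3) + 3 * (l * m ^ 2 + l ^ 2 - 2 * m) * Z ^ 2 - (m ^ 3 - 3 * l * m + 2) * Z ^ 3

end Vale.Agent.P297.H516
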