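import Vale.Agent.P297.H839.Fam
import Vale.Agent.P297.H516.HesseDefs

/-!
The Hesse pencil as a rational surface, in Weierstrass form.
-/

set_option linter.unusedSectionVars false
set_option linter.style.haveILetI false

open CategoryTheory AlgebraicGeometry IntermediateField Polynomial

namespace Vale.Agent.P297.H516

open Vale.Agent.P297 Vale.Agent.P297.H839

section

variable {N : Type} [Field N]

theorem id_AB (l m : N) : 3 * (m * l ^ 2 + m ^ 2 - 2 * l) * (l * m ^ 2 + l ^ 2 - 2 * m) +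
    (l ^ 3 - 3 * l * m + 2) * (m ^ 3 - 3 * l * m + 2) = 4 * (1 - l ^ 3) * (1 - m ^ 3) := by
  ring

theorem id_W1 (l m : N) : (m * l ^ 2 + m ^ 2 - 2 * l) ^ 3 +
    (1 - m ^ 3) * (l ^ 3 - 3 * l * m + 2) ^ 2 = Wf l m ^ 2 := by
  unfold Wf
  ring

theorem id_W2 (l m : N) : (l * m ^ 2 + l ^ 2 - 2 * m) ^ 3 +
    (1 - l ^ 3) * (m ^ 3 - 3 * l * m + 2) ^ 2 = Wf l m ^ 2 := by
  unfold Wf
  ring

/-- The coefficients of the Weierstrass equation, I. -/
theorem id_c1 (l m : N) :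
    3 * (2 * (1 - m ^ 3) * (l ^ 3 - 3 * l * m + 2) * (l * m ^ 2 + l ^ 2 - 2 * m) -
      (m * l ^ 2 + m ^ 2 - 2 * l) ^ 2 * (m ^ 3 - 3 * l * m + 2)) =
    Wf l m * (9 * l ^ 2 * (1 - m ^ 3) -
      3 * (m ^ 4 - 4 * m - 4 * l ^ 2 * m ^ 3 + l ^ 2 + 6 * l * m ^ 2)) := by
  unfold Wf
  ring

/-- The coefficients of the Weierstrass equation, II. -/
theorem id_c2 (l m : N) :
    3 * (m ^ 4 - 4 * m - 4 * l ^ 2 * m ^ 3 + l ^ 2 + 6 * l * m ^ 2) ^ 2 -
      18 * l ^ 2 * (1 - m ^ 3) * (m ^ 4 - 4 * m - 4 * l ^ 2 * m ^ 3 + l ^ 2 + 6 * l * m ^ 2) -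
      24 * l * (1 - l ^ 3) * (1 - m ^ 3) ^ 2 =
    3 * ((m * l ^ 2 + m ^ 2 - 2 * l) * (m ^ 3 - 3 * l * m + 2) ^ 2 +
      3 * (1 - m ^ 3) * (l * m ^ 2 + l ^ 2 - 2 * m) ^ 2) := by
  ring

/-- The coefficients of the Weierstrass equation, III. -/
theorem id_c3 (l m : N) :
    - (m ^ 4 - 4 * m - 4 * l ^ 2 * m ^ 3 + l ^ 2 + 6 * l * m ^ 2) ^ 3 +
      9 * l ^ 2 * (1 - m ^ 3) * (m ^ 4 - 4 * m - 4 * l ^ 2 * m ^ 3 + l ^ 2 + 6 * l * m ^ 2) ^ 2 +
      24 * l * (1 - l ^ 3) * (1 - m ^ 3) ^ 2 *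
        (m ^ 4 - 4 * m - 4 * l ^ 2 * m ^ 3 + l ^ 2 + 6 * l * m ^ 2) +
      16 * (1 - l ^ 3) ^ 2 * (1 - m ^ 3) ^ 3 = - (m ^ 3 - 3 * l * m + 2) ^ 3 * Wf l m := by
  unfold Wf
  ring

/-- The identity of the elliptic quotient. -/
theorem id_quot (A B R T D E W Z : N) (h1 : 3 * A * B + R * T = 4 * D * E)
    (h2 : A ^ 3 + E * R ^ 2 = W ^ 2) :
    27 * W ^ 2 * (B + T * Z) ^ 3 +
      27 * (2 * E * R * B - A ^ 2 * T) * (B + T * Z) ^ 2 * (4 * E * Z ^ 3 + 3 * A * Z - R) +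
      9 * (A * T ^ 2 + 3 * E * B ^ 2) * (B + T * Z) * (4 * E * Z ^ 3 + 3 * A * Z - R) ^ 2 -
      T ^ 3 * (4 * E * Z ^ 3 + 3 * A * Z - R) ^ 3 =
    16 * E ^ 3 * (2 * T * Z ^ 3 + 3 * B * Z ^ 2 + D) ^ 2 *
      (4 * D + 3 * B * Z ^ 2 - T * Z ^ 3) := by
  have h3 : 16 * E ^ 3 * (2 * T * Z ^ 3 + 3 * B * Z ^ 2 + D) ^ 2 *
      (4 * D + 3 * B * Z ^ 2 - T * Z ^ 3) =
      (8 * T * E * Z ^ 3 + 12 * B * E * Z ^ 2 + 4 * D * E) ^ 2 *
        (4 * D * E + 3 * B * E * Z ^ 2 - T * E * Z ^ 3) := by ring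
  rw [h3, ← h1, ← h2]
  ring

end

section

variable {N : Type} [Field N] [Algebra ℂ N]

theorem hesse_rational {l w e : N} (hlw : AlgebraicIndependent ℂ ![l, w])
    (he : -3 * e ^ 2 = 4 * (1 - l ^ 3) * w ^ 3 + 9 * l ^ 2 * w ^ 2 - 6 * l * w + 1) :
    IsRational (IntermediateField.adjoin ℂ {l, w, e}) := by
  haveI : CharZero N := charZero_of_injective_algebraMap (algebraMap ℂ N).injective
  have hw : w ≠ 0 := by
    have h := aeval_ne_zero hlw (MvPolynomial.X 1) ![0, 1] (by simp)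
    simpa using h
  have h3 : (1 - l * w) ^ 3 + w ^ 3 ≠ 0 := by
    have h := aeval_ne_zero hlw ((1 - MvPolynomial.X 0 * MvPolynomial.X 1) ^ 3 +
      MvPolynomial.X 1 ^ 3) ![0, 0] (by simp)
    simpa using h
  set x := (1 - l * w + e) / (2 * w) with hx
  set y := (1 - l * w - e) / (2 * w) with hy
  have h2w : (2 : N) * w ≠ 0 := mul_ne_zero two_ne_zero hw
  have hx' : x * (2 * w) = 1 - l * w + e := by rw [hx, div_mul_cancel₀ _ h2w]
  have hy' : y * (2 * w) = 1 - l * w - e := by rw [hy, div_mul_cancel₀ _ h2w]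
  have hsum : (x + y + l) * w = 1 := by
    have h : 2 * ((x + y + l) * w) = 2 * 1 := by linear_combination hx' + hy'
    exact mul_left_cancel₀ two_ne_zero h
  have hdiff : (x - y) * w = e := by
    have h : 2 * ((x - y) * w) = 2 * e := by linear_combination hx' - hy'
    exact mul_left_cancel₀ two_ne_zero h
  have hxy : 3 * (x * y) * w ^ 2 = (1 - l * w) ^ 3 + w ^ 3 := by
    have h : 4 * (3 * (x * y) * w ^ 2) = 4 * ((1 - l * w) ^ 3 + w ^ 3) := by
      have h1 : (x * (2 * w)) * (y * (2 * w)) = (1 - l * w + e) * (1 - l * w - e) := by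
        rw [hx', hy']
      linear_combination 3 * h1 + he
    exact mul_left_cancel₀ (by norm_num : (4 : N) ≠ 0) h
  have hxy0 : 3 * (x * y) ≠ 0 := by
    intro h0
    apply h3
    rw [← hxy, h0, zero_mul]
  have hl : l * (3 * (x * y)) = 1 + x ^ 3 + y ^ 3 := by
    have hw3 : w ^ 3 ≠ 0 := pow_ne_zero 3 hw
    apply mul_right_cancel₀ hw3
    have h1 : w * (x + y) = 1 - l * w := by linear_combination hsum
    have h4 : (1 + x ^ 3 + y ^ 3) * w ^ 3 = w ^ 3 + (w * (x + y)) ^ 3 -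
        3 * (x * y) * w ^ 2 * (w * (x + y)) := by ring
    rw [h4, h1, hxy, show l * (3 * (x * y)) * w ^ 3 = l * w * (3 * (x * y) * w ^ 2) by ring, hxy]
    ring
  have hF : IntermediateField.adjoin ℂ {l, w, e} = IntermediateField.adjoin ℂ (Set.range ![x, y]) := by
    rw [range_pair]
    apply le_antisymm
    · have hxm : x ∈ IntermediateField.adjoin ℂ {x, y} :=
        IntermediateField.subset_adjoin _ _ (by simp)
      have hym : y ∈ IntermediateField.adjoin ℂ {x, y} :=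
        IntermediateField.subset_adjoin _ _ (by simp)
      have hlm : l ∈ IntermediateField.adjoin ℂ {x, y} := by
        have h5 : l = (1 + x ^ 3 + y ^ 3) / (3 * (x * y)) := by
          rw [eq_div_iff hxy0]
          exact hl
        rw [h5]
        exact div_mem (add_mem (add_mem (one_mem _) (pow_mem hxm 3)) (pow_mem hym 3))
          (mul_mem (ofNat_mem _ 3) (mul_mem hxm hym))
      have hwm : w ∈ IntermediateField.adjoin ℂ {x, y} := by
        have h5 : w = (x + y + l)⁻¹ := eq_inv_of_mul_eq_one_right hsum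
        rw [h5]
        exact inv_mem (add_mem (add_mem hxm hym) hlm)
      rw [IntermediateField.adjoin_le_iff]
      rintro a (rfl | rfl | rfl)
      · exact hlm
      · exact hwm
      · rw [← hdiff]
        exact mul_mem (sub_mem hxm hym) hwm
    · have hlm : l ∈ IntermediateField.adjoin ℂ {l, w, e} :=
        IntermediateField.subset_adjoin _ _ (by simp)
      have hwm : w ∈ IntermediateField.adjoin ℂ {l, w, e} :=
        IntermediateField.subset_adjoin _ _ (by simp)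
      have hem : e ∈ IntermediateField.adjoin ℂ {l, w, e} :=
        IntermediateField.subset_adjoin _ _ (by simp)
      have h2m : 2 * w ∈ IntermediateField.adjoin ℂ {l, w, e} := mul_mem (ofNat_mem _ 2) hwm
      rw [IntermediateField.adjoin_le_iff]
      rintro a (ha | ha)
      · rw [ha, hx]
        exact div_mem (add_mem (sub_mem (one_mem _) (mul_mem hlm hwm)) hem) h2m
      · rw [Set.mem_singleton_iff.1 ha, hy]
        exact div_mem (sub_mem (sub_mem (one_mem _) (mul_mem hlm hwm)) hem) h2m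
  refine isRational_of_gens hlw _ _ hF ?_
  intro i
  refine isAlgebraic_mem _ _ ?_
  fin_cases i
  · exact IntermediateField.subset_adjoin _ _ (by simp)
  · exact IntermediateField.subset_adjoin _ _ (by simp)

end

end Vale.Agent.P297.H516
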