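import Vale.Agent.P297.H839.Swap

/-!
The sum over the roots of a polynomial with coefficients in a specialised polynomial ring.
-/

set_option linter.unusedSectionVars false
set_option linter.style.haveILetI false

open CategoryTheory AlgebraicGeometry IntermediateField Polynomial

namespace Vale.Agent.P297.H516

open Vale.Agent.P297 Vale.Agent.P297.H839

section Roots

variable {S : Scheme.{0}} {f : S ⟶ Spec (.of ℂ)} [IsProper f] {C : Type} [CommRing C] [Algebra ℂ C]
  {j : Spec (.of C) ⟶ S}
  {hj : j ≫ f = Spec.map (CommRingCat.ofHom (algebraMap ℂ C))}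
  {N : Type} [Field N] [Algebra ℂ N]

/-- The sum over the roots, all data defined over `P`. -/
theorem good_roots_aux {P : Type} [CommRing P] [Algebra ℂ P] [Algebra.FiniteType ℂ P]
    (hP : HasLines P) (g : P →ₐ[ℂ] N) (F : P[X]) (hF : F.Monic) {n : ℕ} (a : Fin n → N)
    (ha : Function.Injective a)
    (hprod : F.map g.toRingHom = ∏ i, (X - Polynomial.C (a i)))
    (θ : C →ₐ[ℂ] AdjoinRoot F) (ev : Fin n → (AdjoinRoot F →ₐ[ℂ] N))
    (hev : ∀ i r, ev i (AdjoinRoot.of F r) = g r) (hroot : ∀ i, ev i (AdjoinRoot.root F) = a i) :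
    ∑ i, Finsupp.single ((ev i).comp θ) (1 : ℤ) ∈ Good f j hj (Rat f) N := by
  classical
  let A₁ : Subalgebra ℂ N := Algebra.adjoin ℂ (Set.range a)
  let A₂ : Subalgebra ℂ N := Algebra.adjoin ℂ (Set.range fun q : Fin n × Fin n => (a q.1 - a q.2)⁻¹)
  have hA1 : A₁.FG := ⟨(Set.finite_range a).toFinset, by simp [A₁]⟩
  have hA2 : A₂.FG :=
    ⟨(Set.finite_range fun q : Fin n × Fin n => (a q.1 - a q.2)⁻¹).toFinset, by simp [A₂]⟩
  have hg : g.range.FG := by
    rw [← Algebra.map_top]
    exact (Algebra.FiniteType.out).map g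
  refine ⟨g.range ⊔ A₁ ⊔ A₂, (hg.sup hA1).sup hA2, fun B hB => ?_⟩
  have hgB : ∀ r, g r ∈ B := fun r =>
    hB ((le_sup_left.trans le_sup_left : g.range ≤ g.range ⊔ A₁ ⊔ A₂) ⟨r, rfl⟩)
  have haB : ∀ i, a i ∈ B := fun i =>
    hB ((le_sup_right.trans le_sup_left : A₁ ≤ g.range ⊔ A₁ ⊔ A₂)
      (Algebra.subset_adjoin ⟨i, rfl⟩))
  have hiB : ∀ i k, (a i - a k)⁻¹ ∈ B := fun i k =>
    hB ((le_sup_right : A₂ ≤ g.range ⊔ A₁ ⊔ A₂) (Algebra.subset_adjoin ⟨(i, k), rfl⟩))
  let gB : P →ₐ[ℂ] B := g.codRestrict B hgB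
  have hevmk : ∀ i (G : P[X]), ev i (AdjoinRoot.mk F G) = G.eval₂ g.toRingHom (a i) := by
    intro i G
    induction G using Polynomial.induction_on' with
    | add p q hp hq => rw [map_add, map_add, hp, hq, eval₂_add]
    | monomial m r =>
      rw [← Polynomial.C_mul_X_pow_eq_monomial, map_mul, map_mul, map_pow, map_pow,
        AdjoinRoot.mk_C, AdjoinRoot.mk_X, hev, hroot, eval₂_mul, eval₂_C, eval₂_X_pow]
      rfl
  have hevB : ∀ i x, ev i x ∈ B := by
    intro i x
    obtain ⟨G, rfl⟩ := AdjoinRoot.mk_surjective x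
    rw [hevmk, eval₂_eq_sum_range]
    exact sum_mem fun m _ => mul_mem (hgB _) (pow_mem (haB i) m)
  let evB : Fin n → (AdjoinRoot F →ₐ[ℂ] B) := fun i => (ev i).codRestrict B (hevB i)
  have hprodB : F.map gB.toRingHom = ∏ i, (X - Polynomial.C (⟨a i, haB i⟩ : B)) := by
    apply Polynomial.map_injective B.val.toRingHom Subtype.val_injective
    rw [Polynomial.map_map, Polynomial.map_prod]
    simp only [Polynomial.map_sub, Polynomial.map_X, Polynomial.map_C]
    exact hprod
  have key : ∀ ξ : B →ₐ[ℂ] ℂ, (F.map (ξ.comp gB).toRingHom).Separable ∧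
      fibCyc f j hj (ξ.comp gB) θ =
        pair f j hj B ξ (∑ i, Finsupp.single ((ev i).comp θ) (1 : ℤ)) := by
    intro ξ
    have hprodξ : F.map (ξ.comp gB).toRingHom = ∏ i, (X - Polynomial.C (ξ ⟨a i, haB i⟩)) := by
      have h1 := congrArg (Polynomial.map ξ.toRingHom) hprodB
      rw [Polynomial.map_map, Polynomial.map_prod] at h1
      simp only [Polynomial.map_sub, Polynomial.map_X, Polynomial.map_C] at h1
      exact h1
    have hinjξ : Function.Injective (fun i => ξ ⟨a i, haB i⟩) := by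
      intro r r' hrr
      by_contra hne
      have hne' : a r - a r' ≠ 0 := sub_ne_zero.2 fun h => hne (ha h)
      have h1 : ((⟨a r, haB r⟩ : B) - ⟨a r', haB r'⟩) * ⟨(a r - a r')⁻¹, hiB r r'⟩ = 1 :=
        Subtype.ext (mul_inv_cancel₀ hne')
      have h2 := congrArg ξ h1
      rw [map_mul, map_sub, map_one] at h2
      have h3 : ξ ⟨a r, haB r⟩ = ξ ⟨a r', haB r'⟩ := hrr
      rw [h3, sub_self, zero_mul] at h2
      exact zero_ne_one h2
    have hsep : (F.map (ξ.comp gB).toRingHom).Separable := by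
      rw [hprodξ, Polynomial.separable_prod_X_sub_C_iff]
      exact hinjξ
    refine ⟨hsep, ?_⟩
    let χ : Fin n → Fib (ξ.comp gB) (AdjoinRoot F) := fun i =>
      ⟨ξ.comp (evB i), fun x => by
        change ξ (evB i (AdjoinRoot.of F x)) = ξ (gB x)
        congr 1
        apply Subtype.ext
        exact hev i x⟩
    have hχroot : ∀ i, (χ i).1 (AdjoinRoot.root F) = ξ ⟨a i, haB i⟩ := by
      intro i
      change ξ (evB i (AdjoinRoot.root F)) = _
      congr 1
      apply Subtype.ext
      exact hroot i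
    haveI := fib_finite (ξ.comp gB) F hF
    letI := Fintype.ofFinite (Fib (ξ.comp gB) (AdjoinRoot F))
    have hcard : Fintype.card (Fin n) = Fintype.card (Fib (ξ.comp gB) (AdjoinRoot F)) := by
      rw [← Nat.card_eq_fintype_card (α := Fib (ξ.comp gB) (AdjoinRoot F)),
        fib_card _ F hF hsep]
      have h1 := congrArg Polynomial.natDegree hprod
      rw [hF.natDegree_map, Polynomial.natDegree_prod_of_monic _ _
        (fun r _ => Polynomial.monic_X_sub_C _)] at h1
      simpa using h1.symm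
    have hχbij : Function.Bijective χ := by
      rw [Fintype.bijective_iff_injective_and_card]
      refine ⟨?_, hcard⟩
      intro r r' h
      apply hinjξ
      change ξ ⟨a r, haB r⟩ = ξ ⟨a r', haB r'⟩
      rw [← hχroot, ← hχroot, h]
    let E := Equiv.ofBijective χ hχbij
    have hE : ∀ i, (E i).1.comp θ = ξ.comp (((ev i).comp θ).codRestrict B
        (fun c => hevB i (θ c))) := by
      intro i
      apply AlgHom.ext
      intro c
      rfl
    clear_value E
    unfold fibCyc
    rw [← finsum_comp_equiv E, finsum_eq_sum_of_fintype, map_sum]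
    refine Finset.sum_congr rfl fun i _ => ?_
    rw [pair_single, one_smul, cyc_of_mem f j hj B ξ ((ev i).comp θ) (fun c => hevB i (θ c)), hE]
  intro ξ₁ ξ₂
  obtain ⟨hs₁, h1⟩ := key ξ₁
  obtain ⟨hs₂, h2⟩ := key ξ₂
  rw [← h1, ← h2]
  exact transfer_lines f j hj hP F hF _ _ hs₁ hs₂ θ

end Roots

section Local

variable {σ : Type} {N : Type} [Field N] [Algebra ℂ N]

/-- The kernel of a map to a field is prime. -/
theorem ker_prime (g : MvPolynomial σ ℂ →ₐ[ℂ] N) : (RingHom.ker g).IsPrime := RingHom.ker_isPrime g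

/-- The local ring of affine space at the image of an `N`-valued point `g`. -/
def Loc (g : MvPolynomial σ ℂ →ₐ[ℂ] N) : Type :=
  haveI := ker_prime g
  Localization.AtPrime (RingHom.ker g)

noncomputable instance (g : MvPolynomial σ ℂ →ₐ[ℂ] N) : CommRing (Loc g) :=
  haveI := ker_prime g
  inferInstanceAs (CommRing (Localization.AtPrime (RingHom.ker g)))

noncomputable instance (g : MvPolynomial σ ℂ →ₐ[ℂ] N) : Algebra (MvPolynomial σ ℂ) (Loc g) :=
  haveI := ker_prime g
  inferInstanceAs (Algebra (MvPolynomial σ ℂ) (Localization.AtPrime (RingHom.ker g)))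

noncomputable instance (g : MvPolynomial σ ℂ →ₐ[ℂ] N) : Algebra ℂ (Loc g) :=
  haveI := ker_prime g
  inferInstanceAs (Algebra ℂ (Localization.AtPrime (RingHom.ker g)))

instance (g : MvPolynomial σ ℂ →ₐ[ℂ] N) : IsScalarTower ℂ (MvPolynomial σ ℂ) (Loc g) :=
  haveI := ker_prime g
  inferInstanceAs (IsScalarTower ℂ (MvPolynomial σ ℂ) (Localization.AtPrime (RingHom.ker g)))

/-- The complement of the kernel. -/
noncomputable def nker (g : MvPolynomial σ ℂ →ₐ[ℂ] N) : Submonoid (MvPolynomial σ ℂ) :=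
  haveI := ker_prime g
  (RingHom.ker g).primeCompl

theorem mem_nker {g : MvPolynomial σ ℂ →ₐ[ℂ] N} {x : MvPolynomial σ ℂ} :
    x ∈ nker g ↔ g x ≠ 0 := Iff.rfl

instance (g : MvPolynomial σ ℂ →ₐ[ℂ] N) : IsLocalization (nker g) (Loc g) :=
  haveI := ker_prime g
  inferInstanceAs (IsLocalization (RingHom.ker g).primeCompl
    (Localization.AtPrime (RingHom.ker g)))

instance (g : MvPolynomial σ ℂ →ₐ[ℂ] N) : IsLocalRing (Loc g) :=
  haveI := ker_prime g
  inferInstanceAs (IsLocalRing (Localization.AtPrime (RingHom.ker g)))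

theorem nker_le (g : MvPolynomial σ ℂ →ₐ[ℂ] N) : nker g ≤ nonZeroDivisors (MvPolynomial σ ℂ) := by
  apply le_nonZeroDivisors_of_noZeroDivisors
  intro h
  exact (mem_nker.1 h) (map_zero g)

instance (g : MvPolynomial σ ℂ →ₐ[ℂ] N) : IsDomain (Loc g) :=
  IsLocalization.isDomain_of_le_nonZeroDivisors _ (nker_le g)

/-- Evaluation of the local ring at the `N`-valued point. -/
noncomputable def toN (g : MvPolynomial σ ℂ →ₐ[ℂ] N) : Loc g →ₐ[ℂ] N :=
  IsLocalization.liftAlgHom (M := nker g) (f := g) (fun y => (mem_nker.1 y.2).isUnit)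

theorem toN_algebraMap (g : MvPolynomial σ ℂ →ₐ[ℂ] N) (x : MvPolynomial σ ℂ) :
    toN g (algebraMap (MvPolynomial σ ℂ) (Loc g) x) = g x :=
  IsLocalization.lift_eq _ x

/-- The value of a constant. -/
theorem toN_const (g : MvPolynomial σ ℂ →ₐ[ℂ] N) (x : ℂ) :
    toN g (algebraMap ℂ (Loc g) x) = algebraMap ℂ N x :=
  (toN g).commutes x

theorem isUnit_loc {g : MvPolynomial σ ℂ →ₐ[ℂ] N} {r : Loc g} (h : toN g r ≠ 0) : IsUnit r := by
  obtain ⟨⟨u, v⟩, huv⟩ := IsLocalization.surj (nker g) r
  have hv : IsUnit (algebraMap (MvPolynomial σ ℂ) (Loc g) v) := IsLocalization.map_units _ v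
  have h1 := congrArg (toN g) huv
  rw [map_mul, toN_algebraMap, toN_algebraMap] at h1
  have hu : g u ≠ 0 := by
    rw [← h1]
    exact mul_ne_zero h (mem_nker.1 v.2)
  have h2 : IsUnit (algebraMap (MvPolynomial σ ℂ) (Loc g) u) :=
    IsLocalization.map_units (Loc g) (⟨u, mem_nker.2 hu⟩ : nker g)
  have h3 : IsUnit (r * algebraMap (MvPolynomial σ ℂ) (Loc g) v) := by
    rw [show r * algebraMap (MvPolynomial σ ℂ) (Loc g) v = _ from huv]
    exact h2
  exact isUnit_of_mul_isUnit_left h3

theorem isUnit_loc_iff {g : MvPolynomial σ ℂ →ₐ[ℂ] N} {r : Loc g} : IsUnit r ↔ toN g r ≠ 0 :=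
  ⟨fun h => (h.map (toN g)).ne_zero, isUnit_loc⟩

theorem algebraMap_loc_injective (g : MvPolynomial σ ℂ →ₐ[ℂ] N) :
    Function.Injective (algebraMap (MvPolynomial σ ℂ) (Loc g)) :=
  IsLocalization.injective _ (nker_le g)

/-- Unit criterion: an element of the finite cover `F = 0` of the local ring is a unit if none of
its values over the closed point vanishes. -/
theorem isUnit_adjoinRoot {g : MvPolynomial σ ℂ →ₐ[ℂ] N} {F : (Loc g)[X]} (hF : F.Monic) {n : ℕ}
    (a : Fin n → N) (hprod : F.map (toN g).toRingHom = ∏ i, (X - Polynomial.C (a i)))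
    (G : (Loc g)[X]) (hG : ∀ i, G.eval₂ (toN g).toRingHom (a i) ≠ 0) :
    IsUnit (AdjoinRoot.mk F G) := by
  classical
  haveI : IsLocalHom (toN g).toRingHom := ⟨fun r hr => isUnit_loc hr.ne_zero⟩
  by_contra hnu
  obtain ⟨M, hM, hGM⟩ := exists_max_ideal_of_mem_nonunits (show AdjoinRoot.mk F G ∈
    nonunits (AdjoinRoot F) from hnu)
  haveI : Module.Finite (Loc g) (AdjoinRoot F) := hF.finite_adjoinRoot
  haveI : Algebra.IsIntegral (Loc g) (AdjoinRoot F) := Algebra.IsIntegral.of_finite _ _
  haveI := hM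
  have hcm : (M.comap (algebraMap (Loc g) (AdjoinRoot F))).IsMaximal :=
    Ideal.isMaximal_comap_of_isIntegral_of_isMaximal M
  have hcm2 := IsLocalRing.eq_maximalIdeal hcm
  let κ := IsLocalRing.ResidueField (Loc g)
  let q : Loc g →+* κ := IsLocalRing.residue (Loc g)
  let l : κ →+* N := IsLocalRing.ResidueField.lift (toN g).toRingHom
  have hl : l.comp q = (toN g).toRingHom := IsLocalRing.ResidueField.lift_comp_residue _
  have hcop : IsCoprime (F.map q) (G.map q) := by
    rw [← Polynomial.isCoprime_map l, Polynomial.map_map, Polynomial.map_map, hl, hprod]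
    apply IsCoprime.prod_left
    intro i _
    rw [(Polynomial.irreducible_X_sub_C (a i)).coprime_iff_not_dvd, Polynomial.dvd_iff_isRoot,
      Polynomial.IsRoot, Polynomial.eval_map]
    exact hG i
  obtain ⟨U, V, hUV⟩ := hcop
  have hqs : Function.Surjective (Polynomial.map q) :=
    Polynomial.map_surjective q IsLocalRing.residue_surjective
  obtain ⟨U', rfl⟩ := hqs U
  obtain ⟨V', rfl⟩ := hqs V
  have h1 : (U' * F + V' * G - 1).map q = 0 := by
    rw [Polynomial.map_sub, Polynomial.map_add, Polynomial.map_mul, Polynomial.map_mul, hUV,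
      Polynomial.map_one, sub_self]
  have h2 : AdjoinRoot.mk F (U' * F + V' * G - 1) ∈ M := by
    rw [(U' * F + V' * G - 1).as_sum_range_C_mul_X_pow, map_sum]
    refine sum_mem fun i _ => ?_
    rw [map_mul, AdjoinRoot.mk_C]
    apply M.mul_mem_right
    change (U' * F + V' * G - 1).coeff i ∈ M.comap (algebraMap (Loc g) (AdjoinRoot F))
    rw [hcm2, ← IsLocalRing.residue_eq_zero_iff]
    have h3 := congrArg (fun p => p.coeff i) h1
    simp only [Polynomial.coeff_map, Polynomial.coeff_zero] at h3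
    exact h3
  rw [map_sub, map_add, map_mul, map_mul, AdjoinRoot.mk_self, mul_zero, zero_add, map_one] at h2
  apply hM.ne_top
  rw [Ideal.eq_top_iff_one]
  have h4 := M.sub_mem (M.mul_mem_left (AdjoinRoot.mk F V') hGM) h2
  simpa using h4

variable {S : Scheme.{0}} {f : S ⟶ Spec (.of ℂ)} [IsProper f] {C : Type} [CommRing C] [Algebra ℂ C]
  {j : Spec (.of C) ⟶ S}
  {hj : j ≫ f = Spec.map (CommRingCat.ofHom (algebraMap ℂ C))}

/-- **The sum over the roots.** Let `g` be an `N`-valued point of affine space, `F` a monic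
polynomial over the local ring at the image of `g` which has distinct roots `a i` in `N`, and `Θ` a
point of `S` (or of a field `K`) with values in `R[X]/(F)`. Then the sum of the values of `Θ` at the
roots is constant. -/
theorem good_roots [Finite σ] [Algebra.FiniteType ℂ C] {g : MvPolynomial σ ℂ →ₐ[ℂ] N}
    (F : (Loc g)[X]) (hF : F.Monic) {n : ℕ} (a : Fin n → N) (ha : Function.Injective a)
    (hprod : F.map (toN g).toRingHom = ∏ i, (X - Polynomial.C (a i)))
    (θ : C →ₐ[ℂ] AdjoinRoot F) (ev : Fin n → (AdjoinRoot F →ₐ[ℂ] N))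
    (hev : ∀ i r, ev i (AdjoinRoot.of F r) = toN g r)
    (hroot : ∀ i, ev i (AdjoinRoot.root F) = a i) :
    ∑ i, Finsupp.single ((ev i).comp θ) (1 : ℤ) ∈ Good f j hj (Rat f) N := by
  classical
  obtain ⟨s, hs⟩ := (inferInstance : Algebra.FiniteType ℂ C).out
  have hsurj : ∀ c : C, ∃ G : (Loc g)[X], AdjoinRoot.mk F G = θ c := fun c =>
    AdjoinRoot.mk_surjective _
  choose G hG using hsurj
  let Z : Finset (Loc g) := F.coeffs ∪ s.biUnion fun c => (G c).coeffs
  obtain ⟨b, hb⟩ := IsLocalization.exist_integer_multiples_of_finset (nker g) Z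
  let h : MvPolynomial σ ℂ := b
  have hh : g h ≠ 0 := mem_nker.1 b.2
  have hne : h ≠ 0 := by
    intro h0
    apply hh
    rw [h0, map_zero]
  have hle : Submonoid.powers h ≤ nonZeroDivisors (MvPolynomial σ ℂ) :=
    powers_le_nonZeroDivisors_of_noZeroDivisors hne
  have hunit : IsUnit (IsScalarTower.toAlgHom ℂ (MvPolynomial σ ℂ) (Loc g) h) :=
    IsLocalization.map_units (Loc g) b
  let jh : Localization.Away h →ₐ[ℂ] Loc g :=
    awayLift (IsScalarTower.toAlgHom ℂ (MvPolynomial σ ℂ) (Loc g)) h hunit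
  have hjh : ∀ u, jh (algebraMap (MvPolynomial σ ℂ) (Localization.Away h) u) =
      algebraMap (MvPolynomial σ ℂ) (Loc g) u := fun u => awayLift_algebraMap _ h hunit u
  have hjinj : Function.Injective jh := by
    rw [injective_iff_map_eq_zero]
    intro x hx
    obtain ⟨⟨u, ⟨_, n, rfl⟩⟩, hun⟩ := IsLocalization.surj (Submonoid.powers h) x
    have h1 := congrArg jh hun
    rw [map_mul, hx, zero_mul, hjh] at h1
    have h2 : u = 0 := algebraMap_loc_injective g (by rw [← h1, map_zero])
    have h3 : x * algebraMap (MvPolynomial σ ℂ) (Localization.Away h) (h ^ n) = 0 := by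
      rw [show x * algebraMap (MvPolynomial σ ℂ) (Localization.Away h) (h ^ n) = _ from hun, h2,
        map_zero]
    exact (IsLocalization.map_units (Localization.Away h)
      (⟨h ^ n, n, rfl⟩ : Submonoid.powers h)).mul_left_eq_zero.1 h3
  have hZ : ∀ z ∈ Z, ∃ w, jh w = z := by
    intro z hz
    obtain ⟨u, hu⟩ := hb z hz
    have hu' : algebraMap (MvPolynomial σ ℂ) (Loc g) u =
        algebraMap (MvPolynomial σ ℂ) (Loc g) h * z := by
      rw [hu, Algebra.smul_def]
    obtain ⟨e, he⟩ := IsLocalization.Away.algebraMap_isUnit (S := Localization.Away h) h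
    refine ⟨algebraMap (MvPolynomial σ ℂ) (Localization.Away h) u * ((e⁻¹ :
      (Localization.Away h)ˣ) : Localization.Away h), ?_⟩
    rw [map_mul, hjh, hu', ← hjh h, ← he, mul_comm (jh _) z, mul_assoc, ← map_mul, Units.mul_inv,
      map_one, mul_one]
  have hZ0 : ∀ (Q : (Loc g)[X]) (_ : Q.coeffs ⊆ Z), ∃ Q' : (Localization.Away h)[X],
      Q'.map jh.toRingHom = Q := by
    intro Q hQ
    have h1 : Q ∈ Polynomial.lifts jh.toRingHom := by
      rw [Polynomial.lifts_iff_coeff_lifts]
      intro m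
      by_cases h0 : Q.coeff m = 0
      · exact ⟨0, by rw [map_zero, h0]⟩
      · obtain ⟨w, hw⟩ := hZ (Q.coeff m) (hQ (Polynomial.coeff_mem_coeffs h0))
        exact ⟨w, hw⟩
    exact (Polynomial.mem_lifts _).1 h1
  obtain ⟨F', rfl⟩ := hZ0 F Finset.subset_union_left
  have hF' : F'.Monic := Polynomial.monic_of_injective hjinj hF
  have hG' : ∀ c ∈ s, ∃ G' : (Localization.Away h)[X], G'.map jh.toRingHom = G c := by
    intro c hc
    apply hZ0
    exact (Finset.subset_biUnion_of_mem (fun c => (G c).coeffs) hc).trans Finset.subset_union_right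
  let β := bcMap jh F'
  have hβmk : ∀ Q, β (AdjoinRoot.mk F' Q) = AdjoinRoot.mk _ (Q.map jh.toRingHom) := by
    intro Q
    induction Q using Polynomial.induction_on' with
    | add p q hp hq => rw [map_add, map_add, hp, hq, Polynomial.map_add, map_add]
    | monomial m r =>
      rw [← Polynomial.C_mul_X_pow_eq_monomial, map_mul, map_mul, map_pow, map_pow,
        AdjoinRoot.mk_C, AdjoinRoot.mk_X]
      simp only [Polynomial.map_mul, Polynomial.map_pow, Polynomial.map_C, Polynomial.map_X,
        map_mul, map_pow, AdjoinRoot.mk_C, AdjoinRoot.mk_X]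
      rw [show β (AdjoinRoot.of F' r) = _ from bcMap_of jh F' r,
        show β (AdjoinRoot.root F') = _ from bcMap_root jh F']
      rfl
  have hβ : Function.Injective β := by
    rw [injective_iff_map_eq_zero]
    intro x hx
    obtain ⟨Q, rfl⟩ := AdjoinRoot.mk_surjective x
    rw [hβmk, AdjoinRoot.mk_eq_zero] at hx
    rw [AdjoinRoot.mk_eq_zero]
    exact (Polynomial.map_dvd_map jh.toRingHom hjinj hF').1 hx
  have hrange : ∀ c, θ c ∈ β.range := by
    intro c
    have hc : c ∈ Algebra.adjoin ℂ (s : Set C) := by rw [hs]; trivial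
    induction hc using Algebra.adjoin_induction with
    | mem c hc =>
      obtain ⟨G', hG'⟩ := hG' c hc
      refine ⟨AdjoinRoot.mk F' G', ?_⟩
      change β _ = _
      rw [hβmk, hG', hG]
    | algebraMap a =>
      rw [AlgHom.commutes]
      exact Subalgebra.algebraMap_mem _ _
    | add c d _ _ hc hd => rw [map_add]; exact add_mem hc hd
    | mul c d _ _ hc hd => rw [map_mul]; exact mul_mem hc hd
  obtain ⟨θ', hθ'⟩ : ∃ θ' : C →ₐ[ℂ] AdjoinRoot F', ∀ c, β (θ' c) = θ c := by
    let e := AlgEquiv.ofInjective β hβ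
    refine ⟨e.symm.toAlgHom.comp (θ.codRestrict β.range hrange), fun c => ?_⟩
    have h1 := e.apply_symm_apply (θ.codRestrict β.range hrange c)
    exact congrArg Subtype.val h1
  haveI : Algebra.FiniteType ℂ (Localization.Away h) := by
    haveI : Algebra.FiniteType (MvPolynomial σ ℂ) (Localization.Away h) :=
      IsLocalization.finiteType_of_monoid_fg (Submonoid.powers h) _
    exact Algebra.FiniteType.trans (S := MvPolynomial σ ℂ) inferInstance inferInstance
  have hfin := good_roots_aux (f := f) (j := j) (hj := hj) (hasLines_away h) ((toN g).comp jh) F'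
    hF' a ha (by
      rw [← hprod, Polynomial.map_map]
      rfl) θ' (fun i => (ev i).comp β) (by
      intro i r
      change ev i (β (AdjoinRoot.of F' r)) = toN g (jh r)
      rw [show β (AdjoinRoot.of F' r) = _ from bcMap_of jh F' r]
      exact hev i (jh r)) (by
      intro i
      change ev i (β (AdjoinRoot.root F')) = a i
      rw [show β (AdjoinRoot.root F') = _ from bcMap_root jh F']
      exact hroot i)
  have hcomp : ∀ i, ((ev i).comp β).comp θ' = (ev i).comp θ := by
    intro i
    apply AlgHom.ext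
    intro c
    change ev i (β (θ' c)) = ev i (θ c)
    rw [hθ']
  simp only [hcomp] at hfin
  exact hfin

end Local

end Vale.Agent.P297.H516
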