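import Vale.Agent.P297.H516.Hesse
import Vale.Agent.P297.H878.TOne

/-!
The two elliptic quotients of the family are rational surfaces.
-/

set_option linter.unusedSectionVars false
set_option linter.style.haveILetI false

open CategoryTheory AlgebraicGeometry IntermediateField Polynomial

namespace Vale.Agent.P297.H516

open Vale.Agent.P297 Vale.Agent.P297.H839 Vale.Agent.P297.H878

section

variable {K : Type} [Field K]

/-- `a` -/
def af (l m : K) : K := (m * l ^ 2 + m ^ 2 - 2 * l) / (4 * (1 - m ^ 3))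

/-- `b` -/
def bf (l m : K) : K := -(l ^ 3 - 3 * l * m + 2) / (8 * (1 - m ^ 3))

/-- `t` -/
def tf (l m : K) : K := -3 * (1 - l ^ 3) * (1 - m ^ 3) * Wf l m

variable [CharZero K] {l m : K} (hl : 1 - l ^ 3 ≠ 0) (hm : 1 - m ^ 3 ≠ 0)

theorem Wf_comm (l m : K) : Wf m l = Wf l m := by
  unfold Wf
  ring

theorem tf_comm (l m : K) : tf m l = tf l m := by
  unfold tf
  rw [Wf_comm]
  ring

include hm in
theorem pp_eq (Z : K) : 4 * (1 - m ^ 3) * pp (af l m) (bf l m) Z = Pf l m Z := by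
  unfold pp af bf Pf
  field_simp
  ring

include hl in
theorem qq_eq (Z : K) : 4 * (1 - l ^ 3) * qq (af m l) (bf m l) Z = Qf l m Z := by
  unfold qq af bf Qf
  field_simp
  ring

include hl in
theorem mm_eq (Z : K) : (1 - l ^ 3) * mm (af m l) (bf m l) Z =
    -(2 * (m ^ 3 - 3 * l * m + 2) * Z ^ 3 + 3 * (l * m ^ 2 + l ^ 2 - 2 * m) * Z ^ 2 +
      (1 - l ^ 3)) := by
  unfold mm af bf
  field_simp
  ring

include hl in
theorem rr_eq (Z : K) : 4 * (1 - l ^ 3) * (af m l - 2 * bf m l * Z) =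
    (l * m ^ 2 + l ^ 2 - 2 * m) + (m ^ 3 - 3 * l * m + 2) * Z := by
  unfold af bf
  field_simp
  ring

include hl hm in
theorem ab_eq : 12 * af l m * af m l + 16 * bf l m * bf m l = 1 := by
  have h := id_AB l m
  unfold af bf
  field_simp
  linear_combination 4 * h

include hm in
theorem disc_eq : 64 * (1 - m ^ 3) ^ 3 * (af l m ^ 3 + bf l m ^ 2) = Wf l m ^ 2 := by
  rw [← id_W1]
  unfold af bf
  field_simp
  ring

end

/-- The Weierstrass equation of the quotient. -/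
theorem weier {K : Type} [Field K] [CharZero K] (l m Z y w : K) (hl : 1 - l ^ 3 ≠ 0)
    (hm : 1 - m ^ 3 ≠ 0) (hP : Pf l m Z ≠ 0)
    (hy : tf l m * y ^ 2 = pp (af l m) (bf l m) Z * qq (af m l) (bf m l) Z)
    (hw : w * (4 * (1 - l ^ 3) * (1 - m ^ 3)) * Pf l m Z =
      3 * Wf l m * ((l * m ^ 2 + l ^ 2 - 2 * m) + (m ^ 3 - 3 * l * m + 2) * Z) -
        (m ^ 4 - 4 * m - 4 * l ^ 2 * m ^ 3 + l ^ 2 + 6 * l * m ^ 2) * Pf l m Z)
    (e : K) (he : e * Pf l m Z ^ 2 = - 4 * Wf l m * (1 - m ^ 3) * y *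
      (2 * (m ^ 3 - 3 * l * m + 2) * Z ^ 3 + 3 * (l * m ^ 2 + l ^ 2 - 2 * m) * Z ^ 2 +
      (1 - l ^ 3))) :
    -3 * e ^ 2 = 4 * (1 - l ^ 3) * w ^ 3 + 9 * l ^ 2 * w ^ 2 - 6 * l * w + 1 := by
  have hy2 : -48 * (1 - l ^ 3) ^ 2 * (1 - m ^ 3) ^ 2 * Wf l m * y ^ 2 = Pf l m Z * Qf l m Z := by
    rw [← pp_eq hm, ← qq_eq hl]
    have h1 : 4 * (1 - m ^ 3) * pp (af l m) (bf l m) Z * (4 * (1 - l ^ 3) *
        qq (af m l) (bf m l) Z) = 16 * (1 - l ^ 3) * (1 - m ^ 3) *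
        (pp (af l m) (bf l m) Z * qq (af m l) (bf m l) Z) := by ring
    rw [h1, ← hy]
    unfold tf
    ring
  have hq := id_quot (m * l ^ 2 + m ^ 2 - 2 * l) (l * m ^ 2 + l ^ 2 - 2 * m)
    (l ^ 3 - 3 * l * m + 2) (m ^ 3 - 3 * l * m + 2) (1 - l ^ 3) (1 - m ^ 3) (Wf l m) Z
    (by linear_combination id_AB l m) (id_W1 l m)
  have hPdef : 4 * (1 - m ^ 3) * Z ^ 3 + 3 * (m * l ^ 2 + m ^ 2 - 2 * l) * Z -
      (l ^ 3 - 3 * l * m + 2) = Pf l m Z := rfl
  have hQdef : 4 * (1 - l ^ 3) + 3 * (l * m ^ 2 + l ^ 2 - 2 * m) * Z ^ 2 -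
      (m ^ 3 - 3 * l * m + 2) * Z ^ 3 = Qf l m Z := rfl
  rw [hPdef, hQdef] at hq
  have c1 := id_c1 l m
  have c2 := id_c2 l m
  have c3 := id_c3 l m
  generalize Pf l m Z = P at *
  generalize Qf l m Z = Q at *
  generalize Wf l m = W at *
  generalize hA : m * l ^ 2 + m ^ 2 - 2 * l = A at *
  generalize hB : l * m ^ 2 + l ^ 2 - 2 * m = B at *
  generalize hR : l ^ 3 - 3 * l * m + 2 = R at *
  generalize hT : m ^ 3 - 3 * l * m + 2 = T at *
  generalize hU : m ^ 4 - 4 * m - 4 * l ^ 2 * m ^ 3 + l ^ 2 + 6 * l * m ^ 2 = U at *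
  generalize hE : 1 - m ^ 3 = E at *
  generalize hD : 1 - l ^ 3 = D at *
  generalize hS : 2 * T * Z ^ 3 + 3 * B * Z ^ 2 + D = S at *
  have hne : 16 * D ^ 2 * E ^ 3 * P ^ 4 ≠ 0 := by
    have h16 : (16 : K) ≠ 0 := by norm_num
    exact mul_ne_zero (mul_ne_zero (mul_ne_zero h16 (pow_ne_zero 2 hl)) (pow_ne_zero 3 hm))
      (pow_ne_zero 4 hP)
  apply mul_left_cancel₀ hne
  -- left hand side
  have hL : 16 * D ^ 2 * E ^ 3 * P ^ 4 * (-3 * e ^ 2) = 16 * E ^ 3 * W * S ^ 2 * Q * P := by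
    have h1 : 16 * D ^ 2 * E ^ 3 * P ^ 4 * (-3 * e ^ 2) =
        -48 * D ^ 2 * E ^ 3 * (e * P ^ 2) ^ 2 := by ring
    rw [h1, he]
    linear_combination 16 * W * E ^ 3 * S ^ 2 * hy2
  rw [hL]
  have hR' : 16 * D ^ 2 * E ^ 3 * P ^ 4 * (4 * D * w ^ 3 + 9 * l ^ 2 * w ^ 2 - 6 * l * w + 1) =
      P * ((w * (4 * D * E) * P) ^ 3 + 9 * l ^ 2 * E * (w * (4 * D * E) * P) ^ 2 * P -
        24 * l * D * E ^ 2 * (w * (4 * D * E) * P) * P ^ 2 + 16 * D ^ 2 * E ^ 3 * P ^ 3) := by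
    ring
  rw [hR', hw]
  linear_combination (-P * W) * hq + 9 * W * (B + T * Z) ^ 2 * P ^ 2 * c1 -
    3 * W * (B + T * Z) * P ^ 3 * c2 - P ^ 4 * c3

section

variable {K : Type} [Field K] [Algebra ℂ K] {l m : K}

theorem mem_D {F : IntermediateField ℂ K} (hl : l ∈ F) : 1 - l ^ 3 ∈ F :=
  sub_mem (one_mem _) (pow_mem hl 3)

theorem mem_W {F : IntermediateField ℂ K} (hl : l ∈ F) (hm : m ∈ F) : Wf l m ∈ F := by
  unfold Wf
  exact sub_mem (add_mem (sub_mem (add_mem (pow_mem hl 3) (pow_mem hm 3))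
    (mul_mem (mul_mem (ofNat_mem _ 3) (pow_mem hl 2)) (pow_mem hm 2)))
    (mul_mem (mul_mem (ofNat_mem _ 3) hl) hm)) (ofNat_mem _ 2)

theorem mem_U {F : IntermediateField ℂ K} (hl : l ∈ F) (hm : m ∈ F) :
    m ^ 4 - 4 * m - 4 * l ^ 2 * m ^ 3 + l ^ 2 + 6 * l * m ^ 2 ∈ F :=
  add_mem (add_mem (sub_mem (sub_mem (pow_mem hm 4) (mul_mem (ofNat_mem _ 4) hm))
    (mul_mem (mul_mem (ofNat_mem _ 4) (pow_mem hl 2)) (pow_mem hm 3))) (pow_mem hl 2))
    (mul_mem (mul_mem (ofNat_mem _ 6) hl) (pow_mem hm 2))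

theorem mem_af {F : IntermediateField ℂ K} (hl : l ∈ F) (hm : m ∈ F) : af l m ∈ F := by
  unfold af
  exact div_mem (sub_mem (add_mem (mul_mem hm (pow_mem hl 2)) (pow_mem hm 2))
    (mul_mem (ofNat_mem _ 2) hl)) (mul_mem (ofNat_mem _ 4) (mem_D hm))

theorem mem_bf {F : IntermediateField ℂ K} (hl : l ∈ F) (hm : m ∈ F) : bf l m ∈ F := by
  unfold bf
  exact div_mem (neg_mem (add_mem (sub_mem (pow_mem hl 3)
    (mul_mem (mul_mem (ofNat_mem _ 3) hl) hm)) (ofNat_mem _ 2)))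
    (mul_mem (ofNat_mem _ 8) (mem_D hm))

/-- The first elliptic quotient is a rational surface. -/
theorem side_one {Z y : K} (hind : AlgebraicIndependent ℂ ![l, Z])
    (hml : m ∈ IntermediateField.adjoin ℂ {l}) (hl : 1 - l ^ 3 ≠ 0) (hm : 1 - m ^ 3 ≠ 0)
    (hW : Wf l m ≠ 0)
    (hy : tf l m * y ^ 2 = pp (af l m) (bf l m) Z * qq (af m l) (bf m l) Z) :
    IsRational (IntermediateField.adjoin ℂ
      {l, (af m l - 2 * bf m l * Z) / pp (af l m) (bf l m) Z,
        y * mm (af m l) (bf m l) Z / pp (af l m) (bf l m) Z ^ 2}) := by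
  haveI : CharZero K := charZero_of_injective_algebraMap (algebraMap ℂ K).injective
  have h3 : (3 : K) ≠ 0 := by norm_num
  have h4 : (4 : K) ≠ 0 := by norm_num
  obtain ⟨hu, _⟩ := (pair_iff l Z).1 hind
  obtain ⟨L, hcl, hL, hiff⟩ := exists_closure hu
  have hZ : Z ∉ L := (hiff Z).1 hind
  have hlL : l ∈ L := hL (IntermediateField.mem_adjoin_simple_self ℂ l)
  have hmL : m ∈ L := hL hml
  have haL : af l m ∈ L := mem_af hlL hmL
  have hbL : bf l m ∈ L := mem_bf hlL hmL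
  have hcL : af m l ∈ L := mem_af hmL hlL
  have hdL : bf m l ∈ L := mem_bf hmL hlL
  have hpp : pp (af l m) (bf l m) Z ≠ 0 := p_ne L hcl haL hbL hZ
  have hP : Pf l m Z ≠ 0 := by
    rw [← pp_eq hm]
    exact mul_ne_zero (mul_ne_zero h4 hm) hpp
  set U := (af m l - 2 * bf m l * Z) / pp (af l m) (bf l m) Z with hU
  set V := y * mm (af m l) (bf m l) Z / pp (af l m) (bf l m) Z ^ 2 with hV
  have hUp : U * pp (af l m) (bf l m) Z = af m l - 2 * bf m l * Z := by
    rw [hU, div_mul_cancel₀ _ hpp]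
  have hVp : V * pp (af l m) (bf l m) Z ^ 2 = y * mm (af m l) (bf m l) Z := by
    rw [hV, div_mul_cancel₀ _ (pow_ne_zero 2 hpp)]
  set u₀ := m ^ 4 - 4 * m - 4 * l ^ 2 * m ^ 3 + l ^ 2 + 6 * l * m ^ 2 with hu₀
  have hDE : 4 * (1 - l ^ 3) * (1 - m ^ 3) ≠ 0 := mul_ne_zero (mul_ne_zero h4 hl) hm
  set w := (3 * (1 - l ^ 3) * Wf l m / (1 - m ^ 3) * U - u₀) / (4 * (1 - l ^ 3) * (1 - m ^ 3))
    with hw
  set e := Wf l m * (1 - l ^ 3) / (4 * (1 - m ^ 3)) * V with he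
  have hw1 : w * (4 * (1 - l ^ 3) * (1 - m ^ 3)) =
      3 * (1 - l ^ 3) * Wf l m / (1 - m ^ 3) * U - u₀ := by
    rw [hw, div_mul_cancel₀ _ hDE]
  have hUw : U = (w * (4 * (1 - l ^ 3) * (1 - m ^ 3)) + u₀) * (1 - m ^ 3) /
      (3 * (1 - l ^ 3) * Wf l m) := by
    rw [hw1]
    field_simp
    ring
  have hVe : V = e * (4 * (1 - m ^ 3)) / (Wf l m * (1 - l ^ 3)) := by
    rw [he]
    field_simp
  have hrel : -3 * e ^ 2 = 4 * (1 - l ^ 3) * w ^ 3 + 9 * l ^ 2 * w ^ 2 - 6 * l * w + 1 := by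
    apply weier l m Z y w hl hm hP hy
    · rw [hw1, ← pp_eq hm, ← hu₀]
      have h5 := rr_eq hl (l := l) (m := m) Z
      have h6 : (3 * (1 - l ^ 3) * Wf l m / (1 - m ^ 3) * U - u₀) *
          (4 * (1 - m ^ 3) * pp (af l m) (bf l m) Z) =
          12 * (1 - l ^ 3) * Wf l m * (U * pp (af l m) (bf l m) Z) -
            u₀ * (4 * (1 - m ^ 3) * pp (af l m) (bf l m) Z) := by
        field_simp
        ring
      rw [h6, hUp, ← h5]
      ring
    · rw [← pp_eq hm]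
      have h5 := mm_eq hl (l := l) (m := m) Z
      have h6 : e * (4 * (1 - m ^ 3) * pp (af l m) (bf l m) Z) ^ 2 =
          4 * Wf l m * (1 - l ^ 3) * (1 - m ^ 3) * (V * pp (af l m) (bf l m) Z ^ 2) := by
        rw [he]
        field_simp
      rw [h6, hVp]
      linear_combination 4 * Wf l m * (1 - m ^ 3) * y * h5
  have hwL : w ∉ L := by
    intro hwL
    have hUL : U ∈ L := by
      rw [hUw]
      exact div_mem (mul_mem (add_mem (mul_mem hwL (mul_mem (mul_mem (ofNat_mem _ 4) (mem_D hlL))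
        (mem_D hmL))) (mem_U hlL hmL)) (mem_D hmL))
        (mul_mem (mul_mem (ofNat_mem _ 3) (mem_D hlL)) (mem_W hlL hmL))
    have key := coeff_zero L hcl hZ ![U * (2 * bf l m) - af m l, U * (3 * af l m) + 2 * bf m l, 0,
      U] (by
      intro i
      fin_cases i
      · exact sub_mem (mul_mem hUL (mul_mem (ofNat_mem _ 2) hbL)) hcL
      · exact add_mem (mul_mem hUL (mul_mem (ofNat_mem _ 3) haL)) (mul_mem (ofNat_mem _ 2) hdL)
      · exact L.zero_mem
      · exact hUL) (by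
      have h7 := hUp
      unfold pp at h7
      simp [Fin.sum_univ_succ]
      linear_combination h7)
    have k3 : U = 0 := key 3
    have k0 : U * (2 * bf l m) - af m l = 0 := key 0
    have k1 : U * (3 * af l m) + 2 * bf m l = 0 := key 1
    have h8 := ab_eq hl hm
    have h9 : af m l = 0 := by linear_combination -k0 + 2 * bf l m * k3
    have h10 : bf m l = 0 := by
      have h11 : 2 * bf m l = 0 := by linear_combination k1 - 3 * af l m * k3
      exact (mul_eq_zero.1 h11).resolve_left two_ne_zero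
    rw [h9, h10] at h8
    simp at h8
  have hfield : IntermediateField.adjoin ℂ {l, U, V} = IntermediateField.adjoin ℂ {l, w, e} := by
    apply le_antisymm
    · have hl1 : l ∈ IntermediateField.adjoin ℂ {l, w, e} :=
        IntermediateField.subset_adjoin _ _ (by simp)
      have hm1 : m ∈ IntermediateField.adjoin ℂ {l, w, e} := by
        refine (IntermediateField.adjoin.mono ℂ _ _ ?_) hml
        intro x hx
        rw [Set.mem_singleton_iff.1 hx]
        simp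
      have hw2 : w ∈ IntermediateField.adjoin ℂ {l, w, e} :=
        IntermediateField.subset_adjoin _ _ (by simp)
      have he2 : e ∈ IntermediateField.adjoin ℂ {l, w, e} :=
        IntermediateField.subset_adjoin _ _ (by simp)
      rw [IntermediateField.adjoin_le_iff]
      rintro x (hx | hx | hx)
      · rw [hx]; exact hl1
      · rw [hx, hUw]
        exact div_mem (mul_mem (add_mem (mul_mem hw2 (mul_mem (mul_mem (ofNat_mem _ 4)
          (mem_D hl1)) (mem_D hm1))) (mem_U hl1 hm1)) (mem_D hm1))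
          (mul_mem (mul_mem (ofNat_mem _ 3) (mem_D hl1)) (mem_W hl1 hm1))
      · rw [Set.mem_singleton_iff.1 hx, hVe]
        exact div_mem (mul_mem he2 (mul_mem (ofNat_mem _ 4) (mem_D hm1)))
          (mul_mem (mem_W hl1 hm1) (mem_D hl1))
    · have hl1 : l ∈ IntermediateField.adjoin ℂ {l, U, V} :=
        IntermediateField.subset_adjoin _ _ (by simp)
      have hm1 : m ∈ IntermediateField.adjoin ℂ {l, U, V} := by
        refine (IntermediateField.adjoin.mono ℂ _ _ ?_) hml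
        intro x hx
        rw [Set.mem_singleton_iff.1 hx]
        simp
      have hU2 : U ∈ IntermediateField.adjoin ℂ {l, U, V} :=
        IntermediateField.subset_adjoin _ _ (by simp)
      have hV2 : V ∈ IntermediateField.adjoin ℂ {l, U, V} :=
        IntermediateField.subset_adjoin _ _ (by simp)
      rw [IntermediateField.adjoin_le_iff]
      rintro x (hx | hx | hx)
      · rw [hx]; exact hl1
      · rw [hx, hw]
        exact div_mem (sub_mem (mul_mem (div_mem (mul_mem (mul_mem (ofNat_mem _ 3) (mem_D hl1))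
          (mem_W hl1 hm1)) (mem_D hm1)) hU2) (mem_U hl1 hm1))
          (mul_mem (mul_mem (ofNat_mem _ 4) (mem_D hl1)) (mem_D hm1))
      · rw [Set.mem_singleton_iff.1 hx, he]
        exact mul_mem (div_mem (mul_mem (mem_W hl1 hm1) (mem_D hl1))
          (mul_mem (ofNat_mem _ 4) (mem_D hm1))) hV2
  rw [hfield]
  exact hesse_rational ((hiff w).2 hwL) hrel

end

end Vale.Agent.P297.H516
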