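import Vale.Agent.P297.H839.Points
import Vale.Agent.P297.H839.Defs

/-!
Definitions for the statement: multiples of zero-cycles of degree zero, and cycles of embeddings.
-/

open CategoryTheory AlgebraicGeometry

namespace Vale.Agent.P297.H516

open Vale.Agent.P297 Vale.Agent.P297.H839

/-- On every integral proper `ℂ`-scheme `S` with function field `K`, the zero-cycle
`n ([x] - [y])` is rationally equivalent to zero for any two closed points `x`, `y`. -/
def TorsionPoints (n : ℤ) (K : Type) [Field K] [Algebra ℂ K] : Prop :=
  ∀ (S : Scheme.{0}) [IsIntegral S] (f : S ⟶ Spec (.of ℂ)) [IsProper f],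
    IsFunctionFieldOf f K → ∀ x y : ClosedPt S,
      n • (Finsupp.single x (1 : ℤ) - Finsupp.single y 1) ∈ Rat f

end Vale.Agent.P297.H516
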