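import Vale.Agent.P297.H516.Roots

/-!
Ring-valued points of purely transcendental fields and of their quadratic extensions.
-/

set_option linter.unusedSectionVars false
set_option linter.style.haveILetI false

open CategoryTheory AlgebraicGeometry IntermediateField Polynomial

namespace Vale.Agent.P297.H516

open Vale.Agent.P297 Vale.Agent.P297.H839

/-- A point of the purely transcendental field `ℂ(s)` with values in a ring in which the nonzero
polynomials in the values of `s` are units. -/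
theorem exists_tau {τ : Type} {K : Type} [Field K] [Algebra ℂ K] (s : τ → K)
    (hs : AlgebraicIndependent ℂ s) {B : Type} [CommRing B] [Algebra ℂ B] (s' : τ → B)
    (hu : ∀ w : MvPolynomial τ ℂ, w ≠ 0 → IsUnit (MvPolynomial.aeval s' w)) :
    ∃ φ : IntermediateField.adjoin ℂ (Set.range s) →ₐ[ℂ] B,
      ∀ i, φ ⟨s i, IntermediateField.subset_adjoin _ _ ⟨i, rfl⟩⟩ = s' i := by
  let φ₀ : FractionRing (MvPolynomial τ ℂ) →ₐ[ℂ] B :=
    IsLocalization.liftAlgHom (M := nonZeroDivisors (MvPolynomial τ ℂ))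
      (f := (MvPolynomial.aeval s' : MvPolynomial τ ℂ →ₐ[ℂ] B))
      (fun y => hu y (nonZeroDivisors.ne_zero y.2))
  have hφ₀ : ∀ w, φ₀ (algebraMap (MvPolynomial τ ℂ) _ w) = MvPolynomial.aeval s' w := fun w =>
    IsLocalization.lift_eq _ w
  refine ⟨φ₀.comp hs.aevalEquivField.symm.toAlgHom, fun i => ?_⟩
  have h1 : hs.aevalEquivField (algebraMap (MvPolynomial τ ℂ) (FractionRing (MvPolynomial τ ℂ))
      (MvPolynomial.X i)) = ⟨s i, IntermediateField.subset_adjoin _ _ ⟨i, rfl⟩⟩ := by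
    apply Subtype.ext
    rw [AlgebraicIndependent.aevalEquivField_algebraMap_apply_coe, MvPolynomial.aeval_X]
  change φ₀ (hs.aevalEquivField.symm _) = _
  rw [← h1, AlgEquiv.symm_apply_apply, hφ₀, MvPolynomial.aeval_X]

/-- A point of a quadratic extension `F(y)` with given restriction to `F` and given value of
`y`. -/
theorem exists_theta {K : Type} [Field K] [Algebra ℂ K] (F : IntermediateField ℂ K) (y : K)
    (hy : y ^ 2 ∈ F) (hyF : y ∉ F) (hspan : ∀ x : K, ∃ a ∈ F, ∃ b ∈ F, x = a + b * y)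
    {B : Type} [CommRing B] [Algebra ℂ B] (φ : F →ₐ[ℂ] B) (y' : B)
    (hy' : y' ^ 2 = φ ⟨y ^ 2, hy⟩) :
    ∃ Θ : K →ₐ[ℂ] B, (∀ x : F, Θ x = φ x) ∧ Θ y = y' := by
  choose a ha b hb hab using hspan
  have huniq : ∀ (x : K) {c d : K} (hc : c ∈ F) (hd : d ∈ F), x = c + d * y → a x = c ∧ b x = d :=
    fun x c d hc hd h => quad_unique F y hyF (ha x) (hb x) hc hd ((hab x).symm.trans h)
  have hadd : ∀ x x', a (x + x') = a x + a x' ∧ b (x + x') = b x + b x' := fun x x' =>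
    huniq _ (F.add_mem (ha x) (ha x')) (F.add_mem (hb x) (hb x')) (by
      conv_lhs => rw [hab x, hab x']
      ring)
  have hmul : ∀ x x', a (x * x') = a x * a x' + b x * b x' * y ^ 2 ∧
      b (x * x') = a x * b x' + b x * a x' := fun x x' =>
    huniq _ (F.add_mem (F.mul_mem (ha x) (ha x')) (F.mul_mem (F.mul_mem (hb x) (hb x')) hy))
      (F.add_mem (F.mul_mem (ha x) (hb x')) (F.mul_mem (hb x) (ha x'))) (by
      conv_lhs => rw [hab x, hab x']
      ring)
  have hF : ∀ x ∈ F, a x = x ∧ b x = 0 := fun x hx => huniq _ hx F.zero_mem (by ring)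
  have hyy : a y = 0 ∧ b y = 1 := huniq _ F.zero_mem F.one_mem (by ring)
  let Θ₀ : K → B := fun x => φ ⟨a x, ha x⟩ + φ ⟨b x, hb x⟩ * y'
  have hφ : ∀ {x x' : K} (hx : x ∈ F) (hx' : x' ∈ F), x = x' → φ ⟨x, hx⟩ = φ ⟨x', hx'⟩ := by
    rintro x _ hx hx' rfl
    rfl
  have hΘF : ∀ x (hx : x ∈ F), Θ₀ x = φ ⟨x, hx⟩ := by
    intro x hx
    obtain ⟨h1, h2⟩ := hF x hx
    change φ ⟨a x, ha x⟩ + φ ⟨b x, hb x⟩ * y' = _
    rw [hφ (ha x) hx h1, hφ (hb x) F.zero_mem h2]
    have h3 : φ ⟨0, F.zero_mem⟩ = 0 := map_zero φ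
    rw [h3, zero_mul, add_zero]
  let Θ : K →ₐ[ℂ] B :=
    { toFun := Θ₀
      map_one' := by
        rw [hΘF 1 F.one_mem]
        exact map_one φ
      map_zero' := by
        rw [hΘF 0 F.zero_mem]
        exact map_zero φ
      map_add' := by
        intro x x'
        obtain ⟨h1, h2⟩ := hadd x x'
        change φ _ + φ _ * y' = φ _ + φ _ * y' + (φ _ + φ _ * y')
        rw [hφ (ha (x + x')) (F.add_mem (ha x) (ha x')) h1,
          hφ (hb (x + x')) (F.add_mem (hb x) (hb x')) h2]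
        have h3 : φ ⟨a x + a x', F.add_mem (ha x) (ha x')⟩ = φ ⟨a x, ha x⟩ + φ ⟨a x', ha x'⟩ :=
          map_add φ ⟨a x, ha x⟩ ⟨a x', ha x'⟩
        have h4 : φ ⟨b x + b x', F.add_mem (hb x) (hb x')⟩ = φ ⟨b x, hb x⟩ + φ ⟨b x', hb x'⟩ :=
          map_add φ ⟨b x, hb x⟩ ⟨b x', hb x'⟩
        rw [h3, h4]
        ring
      map_mul' := by
        intro x x'
        obtain ⟨h1, h2⟩ := hmul x x'
        change φ _ + φ _ * y' = (φ _ + φ _ * y') * (φ _ + φ _ * y')
        rw [hφ (ha (x * x')) (F.add_mem (F.mul_mem (ha x) (ha x'))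
            (F.mul_mem (F.mul_mem (hb x) (hb x')) hy)) h1,
          hφ (hb (x * x')) (F.add_mem (F.mul_mem (ha x) (hb x')) (F.mul_mem (hb x) (ha x'))) h2]
        have h3 : φ ⟨a x * a x' + b x * b x' * y ^ 2, F.add_mem (F.mul_mem (ha x) (ha x'))
            (F.mul_mem (F.mul_mem (hb x) (hb x')) hy)⟩ =
            φ ⟨a x, ha x⟩ * φ ⟨a x', ha x'⟩ + φ ⟨b x, hb x⟩ * φ ⟨b x', hb x'⟩ *
              φ ⟨y ^ 2, hy⟩ := by
          rw [← map_mul, ← map_mul, ← map_mul, ← map_add]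
          rfl
        have h4 : φ ⟨a x * b x' + b x * a x', F.add_mem (F.mul_mem (ha x) (hb x'))
            (F.mul_mem (hb x) (ha x'))⟩ =
            φ ⟨a x, ha x⟩ * φ ⟨b x', hb x'⟩ + φ ⟨b x, hb x⟩ * φ ⟨a x', ha x'⟩ := by
          rw [← map_mul, ← map_mul, ← map_add]
          rfl
        rw [h3, h4, ← hy']
        ring
      commutes' := by
        intro r
        rw [hΘF _ (F.algebraMap_mem r)]
        exact φ.commutes r }
  refine ⟨Θ, fun x => hΘF x x.2, ?_⟩
  change φ ⟨a y, ha y⟩ + φ ⟨b y, hb y⟩ * y' = y'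
  rw [hφ (ha y) F.zero_mem hyy.1, hφ (hb y) F.one_mem hyy.2]
  have h3 : φ ⟨0, F.zero_mem⟩ = 0 := map_zero φ
  have h4 : φ ⟨1, F.one_mem⟩ = 1 := map_one φ
  rw [h3, h4, zero_add, one_mul]

end Vale.Agent.P297.H516
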